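import Vale.Agent.Helper10.GStat
import Vale.Agent.Helper10.Grading

/-!
# Arrivals at a class of a clock which advances by steps of one (task H for P329)

For a clock modulo `m` which every letter either advances by one (`adv a = true`) or leaves
unchanged, the number of arrivals at the class `x` (advancing letters read at class `x - 1`)
plus the number of letters satisfying `sp` which are read at class `x` without advancing is
a statistic all of whose residues have generalized star height at most one.
-/

namespace Vale.Agent.Helper12.P329Arrive

open Vale.Agent.Helper10

section arrive

variable {α : Type} {m : ℕ}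

/-- the clock automaton: an advancing letter increases the class by one -/
def aStep (adv : α → Bool) (j : ZMod m) (a : α) : ZMod m := if adv a then j + 1 else j

/-- the marked transitions: the arrivals at `x` and the non-advancing letters satisfying
`sp` read at `x` -/
def aBad (adv : α → Bool) (sp : α → Prop) [DecidablePred sp] (x : ZMod m) (j : ZMod m)
    (a : α) : Bool :=
  if adv a then decide (j + 1 = x) else (decide (sp a) && decide (j = x))

theorem aBad_target (adv : α → Bool) (sp : α → Prop) [DecidablePred sp] (x : ZMod m) :
    ∀ (j : ZMod m) (a : α), aBad adv sp x j a = true → aStep adv j a = x := by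
  intro j a h
  unfold aBad at h
  unfold aStep
  by_cases ha : adv a = true
  · rw [if_pos ha] at h ⊢
    exact of_decide_eq_true h
  · rw [if_neg ha] at h ⊢
    rw [Bool.and_eq_true] at h
    exact of_decide_eq_true h.2

theorem aStep_cf [NeZero m] (adv : α → Bool) (sp : α → Prop) [DecidablePred sp] (x : ZMod m) :
    CounterFree (gOpt (aStep adv (m := m)) (aBad adv sp x)) := by
  refine cf_of_grading (gOpt (aStep adv (m := m)) (aBad adv sp x))
    (fun q => match q with
      | some j => (j - x).val
      | none => m)
    (fun _ => 0) (fun _ _ => 0) ?_ ?_ ?_
  · intro q a
    cases q with
    | none => exact le_rfl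
    | some j =>
      by_cases hb : aBad adv sp x j a = true
      · have e : gOpt (aStep adv (m := m)) (aBad adv sp x) (some j) a = none := by
          simp [gOpt, hb]
        rw [e]
        exact (ZMod.val_lt (j - x)).le
      · have e : gOpt (aStep adv (m := m)) (aBad adv sp x) (some j) a
            = some (aStep adv j a) := by
          simp [gOpt, hb]
        rw [e]
        show (j - x).val ≤ (aStep adv j a - x).val
        unfold aBad at hb
        unfold aStep
        by_cases ha : adv a = true
        · rw [if_pos ha] at hb ⊢
          have hne : j + 1 ≠ x := by
            intro h
            exact hb (decide_eq_true h)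
          have hne' : (j - x) + 1 ≠ 0 := by
            intro h
            apply hne
            have : j + 1 - x = 0 := by rw [← h]; ring
            exact sub_eq_zero.1 this
          have e2 : j + 1 - x = (j - x) + 1 := by ring
          rw [e2, zmod_val_succ m (j - x) hne']
          exact Nat.le_succ _
        · rw [if_neg ha]
  · intro q a _
    simp
  · intro q q' hrk _
    cases q with
    | none =>
      cases q' with
      | none => rfl
      | some j' =>
        exfalso
        have h1 : (j' - x).val < m := ZMod.val_lt (j' - x)
        have h2 : m = (j' - x).val := hrk
        omega
    | some j =>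
      cases q' with
      | none =>
        exfalso
        have h1 : (j - x).val < m := ZMod.val_lt (j - x)
        have h2 : (j - x).val = m := hrk
        omega
      | some j' =>
        have h2 : (j - x).val = (j' - x).val := hrk
        have h3 : j - x = j' - x := ZMod.val_injective m h2
        have h4 : j = j' := sub_left_injective h3
        rw [h4]

theorem bcount_arrive (adv : α → Bool) (sp : α → Prop) [DecidablePred sp] (x : ZMod m) :
    ∀ (w : List α) (c : ZMod m),
      bcount (aStep adv (m := m)) (aBad adv sp x) c w
        = cnt (fun a => if adv a then (1 : ZMod m) else 0) (fun a => adv a = true) (x - 1) c w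
          + cnt (fun a => if adv a then (1 : ZMod m) else 0) (fun a => adv a = false ∧ sp a)
              x c w := by
  intro w
  induction w with
  | nil => intro c; rfl
  | cons a w ih =>
    intro c
    rw [bcount, cnt, cnt, ih]
    by_cases ha : adv a = true
    · have e1 : aStep adv c a = c + (if adv a = true then (1 : ZMod m) else 0) := by
        unfold aStep
        rw [if_pos ha, if_pos ha]
      have e2 : aBad adv sp x c a = decide (c + 1 = x) := by
        unfold aBad
        rw [if_pos ha]
      have e3 : ¬ ((adv a = false ∧ sp a) ∧ c = x) := by
        rintro ⟨⟨h, _⟩, _⟩
        rw [ha] at h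
        exact Bool.noConfusion h
      rw [e1, e2, if_neg e3]
      by_cases hc : c + 1 = x
      · have hc' : c = x - 1 := by rw [← hc]; ring
        have e4 : adv a = true ∧ c = x - 1 := ⟨ha, hc'⟩
        rw [if_pos e4, if_pos (decide_eq_true hc)]
        ring
      · have e4 : ¬ (adv a = true ∧ c = x - 1) := by
          rintro ⟨_, h⟩
          apply hc
          rw [h]
          ring
        have e5 : ¬ (decide (c + 1 = x) = true) := by
          intro h
          exact hc (of_decide_eq_true h)
        rw [if_neg e4, if_neg e5]
        ring
    · have ha' : adv a = false := by
        cases h : adv a with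
        | false => rfl
        | true => exact absurd h ha
      have e1 : aStep adv c a = c + (if adv a = true then (1 : ZMod m) else 0) := by
        unfold aStep
        rw [if_neg ha, if_neg ha, add_zero]
      have e2 : aBad adv sp x c a = (decide (sp a) && decide (c = x)) := by
        unfold aBad
        rw [if_neg ha]
      have e3 : ¬ (adv a = true ∧ c = x - 1) := by
        rintro ⟨h, _⟩
        exact ha h
      rw [e1, e2, if_neg e3]
      by_cases hc : sp a ∧ c = x
      · have e4 : (adv a = false ∧ sp a) ∧ c = x := ⟨⟨ha', hc.1⟩, hc.2⟩
        have e5 : (decide (sp a) && decide (c = x)) = true := by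
          rw [Bool.and_eq_true]
          exact ⟨decide_eq_true hc.1, decide_eq_true hc.2⟩
        rw [if_pos e4, if_pos e5]
        ring
      · have e4 : ¬ ((adv a = false ∧ sp a) ∧ c = x) := by
          rintro ⟨⟨_, h1⟩, h2⟩
          exact hc ⟨h1, h2⟩
        have e5 : ¬ ((decide (sp a) && decide (c = x)) = true) := by
          intro h
          rw [Bool.and_eq_true] at h
          exact hc ⟨of_decide_eq_true h.1, of_decide_eq_true h.2⟩
        rw [if_neg e4, if_neg e5]
        ring

end arrive

/-- **Task H.**  For a clock modulo `m` advancing by steps of one, the number of arrivals at
the class `x` plus the number of non-advancing letters satisfying `sp` read at the class `x`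
is a statistic all of whose residues have generalized star height at most one. -/
theorem arrive_meas {α : Type} [Finite α] {m : ℕ} [NeZero m] (adv : α → Bool)
    (sp : α → Prop) [DecidablePred sp] (x : ZMod m) :
    Meas (fun w : List α =>
      ((cnt (fun a => if adv a then (1 : ZMod m) else 0) (fun a => adv a = true) (x - 1) 0 w
        + cnt (fun a => if adv a then (1 : ZMod m) else 0) (fun a => adv a = false ∧ sp a) x 0 w
          : ℕ) : ℤ)) := by
  intro e _ r
  have h1 := gstat_gsh (aStep adv (m := m)) (aBad adv sp x) x e (aStep_cf adv sp x)
    (aBad_target adv sp x) 0 (fun p => p.1 = r)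
  refine h1.congr (fun w => ?_)
  rw [bcount_arrive adv sp x w 0, Int.cast_natCast]

end Vale.Agent.Helper12.P329Arrive
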