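import Vale.Agent.Helper10.PMDefs

/-!
# Counter-freeness via a base state (task T2 for P329, shadow proof)

`cf_of_base`: let `bad0` mark a set of transitions of `δ` each of which is either marked by
`bad` or leads to the state `i0`.  If `δ` cut at `bad0` is counter-free and every closed run
of `δ` cut at `bad` from the base state `i0` along a power of a word is already closed
along the word, then `δ` cut at `bad` is counter-free.
-/

namespace Vale.Agent.Helper12.P329Base

open Vale.Agent.Helper10

variable {I α : Type}

/-- a run of the automaton cut at `bad` which never enters `i0` after a nonempty initial part is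
also a run of the automaton cut at `bad0` -/
theorem run_cut_eq (δ : I → α → I) (bad bad0 : I → α → Bool) (i0 : I)
    (h0 : ∀ i a, bad0 i a = true → bad i a = true ∨ δ i a = i0) :
    ∀ (v : List α) (q p : I),
      (∀ v1 v2, v = v1 ++ v2 → v1 ≠ [] → run (gOpt δ bad) (some q) v1 ≠ some i0) →
      run (gOpt δ bad) (some q) v = some p → run (gOpt δ bad0) (some q) v = some p := by
  intro v
  induction v with
  | nil =>
    intro q p _ h
    exact h
  | cons a v ih =>
    intro q p hav h
    rw [run_cons] at h ⊢
    by_cases hb : bad q a = true
    · exfalso
      have e : gOpt δ bad (some q) a = none := by simp [gOpt, hb]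
      rw [e, gOpt_none] at h
      cases h
    · have e : gOpt δ bad (some q) a = some (δ q a) := by simp [gOpt, hb]
      have hne : δ q a ≠ i0 := by
        intro h1
        have h2 := hav [a] v rfl (by simp)
        apply h2
        show run (gOpt δ bad) (gOpt δ bad (some q) a) [] = some i0
        rw [e, h1]
        rfl
      have hb0 : ¬ bad0 q a = true := by
        intro h1
        rcases h0 q a h1 with h2 | h2
        · exact hb h2
        · exact hne h2
      have e0 : gOpt δ bad0 (some q) a = some (δ q a) := by simp [gOpt, hb0]
      rw [e] at h
      rw [e0]
      refine ih (δ q a) p ?_ h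
      intro v1 v2 hv hv1
      have h2 := hav (a :: v1) v2 (by rw [hv]; rfl) (by simp)
      rw [run_cons, e] at h2
      exact h2

/-- **T2.** -/
theorem cf_of_base (δ : I → α → I) (bad bad0 : I → α → Bool) (i0 : I)
    (h0 : ∀ i a, bad0 i a = true → bad i a = true ∨ δ i a = i0)
    (hcut : CounterFree (gOpt δ bad0))
    (hb : ∀ (u : List α) (n : ℕ), 0 < n →
      (fun x => run (gOpt δ bad) x u)^[n] (some i0) = some i0 →
      run (gOpt δ bad) (some i0) u = some i0) : CounterFree (gOpt δ bad) := by
  intro w s n hn hs
  cases s with
  | none => exact gOpt_none δ bad w
  | some q =>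
    -- periodicity of the orbit
    have hper : ∀ t : ℕ, (fun x => run (gOpt δ bad) x w)^[n * t] (some q) = some q := by
      intro t
      rw [Function.iterate_mul]
      exact Function.iterate_fixed hs t
    -- all points of the orbit are alive
    have halive : ∀ k : ℕ, ∃ p : I,
        (fun x => run (gOpt δ bad) x w)^[k] (some q) = some p := by
      intro k
      cases hk : (fun x => run (gOpt δ bad) x w)^[k] (some q) with
      | some p => exact ⟨p, rfl⟩
      | none =>
        exfalso
        have h1 := hper (k + 1)
        have h2 : n * (k + 1) = (n * (k + 1) - k) + k := by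
          have : k ≤ n * (k + 1) := by nlinarith
          omega
        rw [h2, Function.iterate_add_apply, hk, gOpt_iter_none] at h1
        cases h1
    by_cases hB : ∃ (k : ℕ) (v1 v2 : List α), w = v1 ++ v2 ∧
        run (gOpt δ bad) ((fun x => run (gOpt δ bad) x w)^[k] (some q)) v1 = some i0
    · -- the orbit passes through the base state
      obtain ⟨k, v1, v2, hw, hk⟩ := hB
      have hsplit : ∀ x : Option I,
          run (gOpt δ bad) x w = run (gOpt δ bad) (run (gOpt δ bad) x v1) v2 := by
        intro x
        rw [hw, run_append]
      have hy : ∀ j : ℕ,
          run (gOpt δ bad) ((fun x => run (gOpt δ bad) x w)^[j + 1] (some q)) v1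
            = run (gOpt δ bad)
                (run (gOpt δ bad) ((fun x => run (gOpt δ bad) x w)^[j] (some q)) v1)
                (v2 ++ v1) := by
        intro j
        rw [Function.iterate_succ_apply']
        show run (gOpt δ bad)
            (run (gOpt δ bad) ((fun x => run (gOpt δ bad) x w)^[j] (some q)) w) v1 = _
        rw [run_append, hsplit]
      have hy2 : ∀ j : ℕ,
          run (gOpt δ bad) ((fun x => run (gOpt δ bad) x w)^[k + j] (some q)) v1
            = (fun x => run (gOpt δ bad) x (v2 ++ v1))^[j] (some i0) := by
        intro j
        induction j with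
        | zero => exact hk
        | succ j ih =>
          rw [← add_assoc, hy (k + j), ih, Function.iterate_succ_apply']
      have hcyc : (fun x => run (gOpt δ bad) x (v2 ++ v1))^[n] (some i0) = some i0 := by
        rw [← hy2 n, Function.iterate_add_apply, hs]
        exact hk
      have hfix : run (gOpt δ bad) (some i0) (v2 ++ v1) = some i0 := hb (v2 ++ v1) n hn hcyc
      have hy3 : ∀ j : ℕ,
          run (gOpt δ bad) ((fun x => run (gOpt δ bad) x w)^[k + j] (some q)) v1
            = some i0 := by
        intro j
        rw [hy2 j]
        exact Function.iterate_fixed hfix j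
      have hx : ∀ j : ℕ, (fun x => run (gOpt δ bad) x w)^[k + j + 1] (some q)
          = run (gOpt δ bad) (some i0) v2 := by
        intro j
        rw [Function.iterate_succ_apply']
        show run (gOpt δ bad) ((fun x => run (gOpt δ bad) x w)^[k + j] (some q)) w = _
        rw [hsplit, hy3 j]
      have h1 := hper (k + 1)
      have hle : k + 1 ≤ n * (k + 1) := by nlinarith
      obtain ⟨j, hj⟩ : ∃ j, n * (k + 1) = k + j + 1 := ⟨n * (k + 1) - (k + 1), by omega⟩
      have h2 : (fun x => run (gOpt δ bad) x w)^[n * (k + 1) + 1] (some q)
          = run (gOpt δ bad) (some q) w := by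
        rw [Function.iterate_succ_apply', h1]
      have h3 : (fun x => run (gOpt δ bad) x w)^[n * (k + 1) + 1] (some q)
          = run (gOpt δ bad) (some i0) v2 := by
        rw [hj]
        exact hx (j + 1)
      rw [← h2, h3, ← hx j, ← hj]
      exact h1
    · -- the orbit avoids the base state: it is an orbit of the automaton cut at `bad0`
      have hav : ∀ (k : ℕ) (v1 v2 : List α), w = v1 ++ v2 →
          run (gOpt δ bad) ((fun x => run (gOpt δ bad) x w)^[k] (some q)) v1 ≠ some i0 := by
        intro k v1 v2 hw h
        exact hB ⟨k, v1, v2, hw, h⟩
      have hagree : ∀ k : ℕ, (fun x => run (gOpt δ bad0) x w)^[k] (some q)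
          = (fun x => run (gOpt δ bad) x w)^[k] (some q) := by
        intro k
        induction k with
        | zero => rfl
        | succ k ih =>
          rw [Function.iterate_succ_apply', Function.iterate_succ_apply', ih]
          obtain ⟨p, hp⟩ := halive k
          obtain ⟨p', hp'⟩ := halive (k + 1)
          rw [Function.iterate_succ_apply', hp] at hp'
          rw [hp]
          show run (gOpt δ bad0) (some p) w = run (gOpt δ bad) (some p) w
          rw [hp']
          refine run_cut_eq δ bad bad0 i0 h0 w p p' ?_ hp'
          intro v1 v2 hw _
          have h1 := hav k v1 v2 hw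
          rw [hp] at h1
          exact h1
      have h1 : (fun x => run (gOpt δ bad0) x w)^[n] (some q) = some q := by
        rw [hagree n]
        exact hs
      have h2 : run (gOpt δ bad0) (some q) w = some q := hcut w (some q) n hn h1
      have h3 : run (gOpt δ bad0) (some q) w = run (gOpt δ bad) (some q) w := hagree 1
      exact h3.symm.trans h2

end Vale.Agent.Helper12.P329Base
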