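import Vale.Agent.Helper10.PMDefs

/-!
# Memory extensions of counter-free automata (task T1 for P329, shadow proof)

An automaton `δ` is extended by a memory which is updated by maps taken from a class closed
under composition all of whose members are idempotent (for instance overwrite maps).  If `δ`
cut at the transitions marked by `bad'` is counter-free, then so is the extended automaton cut
at any set of transitions containing the lifts of the `bad'` transitions.
-/

namespace Vale.Agent.Helper12.P329Ext

open Vale.Agent.Helper10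

section general

variable {Q α M : Type}

/-- the composition of the memory maps along the run of `δ` from `q` -/
def memMap (δ : Q → α → Q) (u : Q → α → M → M) : List α → Q → M → M
  | [], _ => fun μ => μ
  | a :: w, q => fun μ => memMap δ u w (δ q a) (u q a μ)

theorem memMap_mem (P : (M → M) → Prop) (hid : P (fun μ => μ))
    (hcomp : ∀ F G, P F → P G → P (fun μ => G (F μ)))
    (δ : Q → α → Q) (u : Q → α → M → M) (hu : ∀ q a, P (u q a)) :
    ∀ (w : List α) (q : Q), P (memMap δ u w q) := by
  intro w
  induction w with
  | nil => intro q; exact hid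
  | cons a w ih =>
    intro q
    exact hcomp (u q a) (memMap δ u w (δ q a)) (hu q a) (ih (δ q a))

theorem run_ext_some (δ : Q → α → Q) (bad' : Q → α → Bool) (u : Q → α → M → M)
    (bad : Q × M → α → Bool) (hb : ∀ q μ a, bad' q a = true → bad (q, μ) a = true) :
    ∀ (w : List α) (q : Q) (μ : M) (p : Q × M),
      run (gOpt (extStep δ u) bad) (some (q, μ)) w = some p →
      run (gOpt δ bad') (some q) w = some p.1 ∧ p.2 = memMap δ u w q μ := by
  intro w
  induction w with
  | nil =>
    intro q μ p h
    have h1 : some (q, μ) = some p := h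
    have h2 : (q, μ) = p := Option.some.inj h1
    rw [← h2]
    exact ⟨rfl, rfl⟩
  | cons a w ih =>
    intro q μ p h
    rw [run_cons] at h ⊢
    by_cases hbd : bad (q, μ) a = true
    · exfalso
      have e : gOpt (extStep δ u) bad (some (q, μ)) a = none := by
        simp [gOpt, hbd]
      rw [e, gOpt_none] at h
      cases h
    · have e : gOpt (extStep δ u) bad (some (q, μ)) a = some (δ q a, u q a μ) := by
        simp [gOpt, hbd, extStep]
      have hbd' : ¬ bad' q a = true := fun h' => hbd (hb q μ a h')
      have e' : gOpt δ bad' (some q) a = some (δ q a) := by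
        simp [gOpt, hbd']
      rw [e] at h
      rw [e']
      exact ih (δ q a) (u q a μ) p h

theorem iter_ext_some (δ : Q → α → Q) (bad' : Q → α → Bool) (u : Q → α → M → M)
    (bad : Q × M → α → Bool) (hb : ∀ q μ a, bad' q a = true → bad (q, μ) a = true)
    (w : List α) :
    ∀ (k : ℕ) (q : Q) (μ : M) (p : Q × M),
      (fun x => run (gOpt (extStep δ u) bad) x w)^[k] (some (q, μ)) = some p →
      (fun x => run (gOpt δ bad') x w)^[k] (some q) = some p.1 := by
  intro k
  induction k with
  | zero =>
    intro q μ p h
    have h1 : some (q, μ) = some p := h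
    have h2 : (q, μ) = p := Option.some.inj h1
    rw [← h2]
    rfl
  | succ k ih =>
    intro q μ p h
    rw [Function.iterate_succ_apply] at h ⊢
    cases h1 : run (gOpt (extStep δ u) bad) (some (q, μ)) w with
    | none =>
      exfalso
      rw [h1, gOpt_iter_none] at h
      cases h
    | some p1 =>
      obtain ⟨q1, μ1⟩ := p1
      have h2 := run_ext_some δ bad' u bad hb w q μ (q1, μ1) h1
      rw [h1] at h
      rw [h2.1]
      exact ih q1 μ1 p h

/-- **General memory-extension lemma.** -/
theorem ext_cf_gen (P : (M → M) → Prop) (hid : P (fun μ => μ))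
    (hcomp : ∀ F G, P F → P G → P (fun μ => G (F μ)))
    (hidem : ∀ F, P F → ∀ μ, F (F μ) = F μ)
    (δ : Q → α → Q) (bad' : Q → α → Bool) (u : Q → α → M → M) (hu : ∀ q a, P (u q a))
    (bad : Q × M → α → Bool) (hb : ∀ q μ a, bad' q a = true → bad (q, μ) a = true)
    (hcf : CounterFree (gOpt δ bad')) : CounterFree (gOpt (extStep δ u) bad) := by
  intro w s n hn hs
  cases s with
  | none => exact gOpt_none (extStep δ u) bad w
  | some p0 =>
    obtain ⟨q, μ⟩ := p0
    -- the projected run is closed, hence fixed
    have h1 : (fun x => run (gOpt δ bad') x w)^[n] (some q) = some q :=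
      iter_ext_some δ bad' u bad hb w n q μ (q, μ) hs
    have h2 : run (gOpt δ bad') (some q) w = some q := hcf w (some q) n hn h1
    obtain ⟨k, rfl⟩ : ∃ k, n = k + 1 := ⟨n - 1, by omega⟩
    have hF : ∀ μ', memMap δ u w q (memMap δ u w q μ') = memMap δ u w q μ' :=
      hidem _ (memMap_mem P hid hcomp δ u hu w q)
    -- one round from the state q, μ. leads to the sink or to q, F μ.
    have hstep : ∀ μ', run (gOpt (extStep δ u) bad) (some (q, μ')) w = none ∨
        run (gOpt (extStep δ u) bad) (some (q, μ')) w = some (q, memMap δ u w q μ') := by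
      intro μ'
      cases h3 : run (gOpt (extStep δ u) bad) (some (q, μ')) w with
      | none => exact Or.inl rfl
      | some p1 =>
        right
        have h4 := run_ext_some δ bad' u bad hb w q μ' p1 h3
        rw [h2] at h4
        have h5 : q = p1.1 := Option.some.inj h4.1
        have h6 : p1 = (q, memMap δ u w q μ') := Prod.ext h5.symm h4.2
        rw [h6]
    -- the state q, F μ is fixed or sent to the sink by every number of rounds
    have hfix : ∀ j : ℕ,
        (fun x => run (gOpt (extStep δ u) bad) x w)^[j] (some (q, memMap δ u w q μ)) = none ∨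
        (fun x => run (gOpt (extStep δ u) bad) x w)^[j] (some (q, memMap δ u w q μ))
          = some (q, memMap δ u w q μ) := by
      intro j
      induction j with
      | zero => exact Or.inr rfl
      | succ j ihj =>
        rw [Function.iterate_succ_apply]
        rcases hstep (memMap δ u w q μ) with h3 | h3
        · left
          rw [h3, gOpt_iter_none]
        · rw [h3, hF μ]
          exact ihj
    rw [Function.iterate_succ_apply] at hs
    rcases hstep μ with h3 | h3
    · exfalso
      rw [h3, gOpt_iter_none] at hs
      cases hs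
    · rw [h3] at hs
      rcases hfix k with h4 | h4
      · exfalso
        rw [h4] at hs
        cases hs
      · rw [h4] at hs
        rw [h3]
        exact hs

end general

section instances

variable {Q α ι V : Type}

theorem isOW_id : IsOW (fun μ : ι → V => μ) := ⟨fun _ => none, fun _ _ => rfl⟩

theorem isOW_comp (F G : (ι → V) → (ι → V)) (hF : IsOW F) (hG : IsOW G) :
    IsOW (fun μ => G (F μ)) := by
  obtain ⟨g1, h1⟩ := hF
  obtain ⟨g2, h2⟩ := hG
  refine ⟨fun i => Option.elim (g2 i) (g1 i) (fun v => some v), fun μ i => ?_⟩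
  show G (F μ) i = (Option.elim (g2 i) (g1 i) (fun v => some v)).getD (μ i)
  rw [h2 (F μ) i, h1 μ i]
  cases g2 i with
  | none => rfl
  | some v => rfl

theorem isOW_idem (F : (ι → V) → (ι → V)) (hF : IsOW F) (μ : ι → V) : F (F μ) = F μ := by
  obtain ⟨g, h⟩ := hF
  funext i
  rw [h (F μ) i, h μ i]
  cases g i with
  | none => rfl
  | some v => rfl

theorem isOW1_id : IsOW1 (fun μ : V => μ) := ⟨none, fun _ => rfl⟩

theorem isOW1_comp (F G : V → V) (hF : IsOW1 F) (hG : IsOW1 G) :
    IsOW1 (fun μ => G (F μ)) := by
  obtain ⟨g1, h1⟩ := hF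
  obtain ⟨g2, h2⟩ := hG
  refine ⟨Option.elim g2 g1 (fun v => some v), fun μ => ?_⟩
  show G (F μ) = (Option.elim g2 g1 (fun v => some v)).getD μ
  rw [h2 (F μ), h1 μ]
  cases g2 with
  | none => rfl
  | some v => rfl

theorem isOW1_idem (F : V → V) (hF : IsOW1 F) (μ : V) : F (F μ) = F μ := by
  obtain ⟨g, h⟩ := hF
  rw [h (F μ), h μ]
  cases g with
  | none => rfl
  | some v => rfl

/-- **T1, first statement.** -/
theorem ext_cf (δ : Q → α → Q) (bad' : Q → α → Bool)
    (u : Q → α → (ι → V) → (ι → V)) (hu : ∀ q a, IsOW (u q a))
    (bad : Q × (ι → V) → α → Bool) (hb : ∀ q μ a, bad' q a = true → bad (q, μ) a = true)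
    (hcf : CounterFree (gOpt δ bad')) : CounterFree (gOpt (extStep δ u) bad) :=
  ext_cf_gen IsOW isOW_id isOW_comp isOW_idem δ bad' u hu bad hb hcf

/-- **T1, second statement.** -/
theorem ext_cf1 (δ : Q → α → Q) (bad' : Q → α → Bool)
    (u : Q → α → V → V) (hu : ∀ q a, IsOW1 (u q a))
    (bad : Q × V → α → Bool) (hb : ∀ q μ a, bad' q a = true → bad (q, μ) a = true)
    (hcf : CounterFree (gOpt δ bad')) : CounterFree (gOpt (extStep δ u) bad) :=
  ext_cf_gen IsOW1 isOW1_id isOW1_comp isOW1_idem δ bad' u hu bad hb hcf

end instances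

end Vale.Agent.Helper12.P329Ext
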