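import Vale.Agent.Helper12.P329TwoWay
import Vale.Agent.Helper12.P329Ext

/-!
# Two-way clocks: the master automaton and the one-cell automaton cut at the arrivals (T9)
-/

namespace Vale.Agent.Helper12.P329Cut

open Vale.Agent.Helper10

variable {α : Type} {m : ℕ}

/-- **T9, first statement.**  The master automaton cut at the arrivals to the class `0` is
counter-free. -/
theorem m_cut_cf [NeZero m] (up dn tp : α → Bool) :
    CounterFree (gOpt (mStep (m := m) up dn tp) (evArr0 up dn)) :=
  Vale.Agent.Helper12.P329Ext.ext_cf (clsStep (m := m) up dn) (clsArr up dn 0) (mUpd up dn tp)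
    (fun c a => Vale.Agent.Helper12.P329TwoWay.mUpd_isOW up dn tp c a) (evArr0 up dn)
    (fun _ _ _ h => h) (Vale.Agent.Helper12.P329TwoWay.clsCut_cf up dn 0)

/-- **T9, second statement.**  The one-cell automaton for the class `y` cut at the arrivals
to the class `y` is counter-free. -/
theorem a_cut_cf [NeZero m] (up dn tp : α → Bool) (y : ZMod m) :
    CounterFree (gOpt (aStep (m := m) up dn tp y) (evArrA up dn y)) :=
  Vale.Agent.Helper12.P329Ext.ext_cf1 (clsStep (m := m) up dn) (clsArr up dn y)
    (aUpd up dn tp y) (fun c a => Vale.Agent.Helper12.P329TwoWay.aUpd_isOW1 up dn tp y c a)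
    (evArrA up dn y) (fun _ _ _ h => h) (Vale.Agent.Helper12.P329TwoWay.clsCut_cf up dn y)

end Vale.Agent.Helper12.P329Cut
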