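import Vale.Agent.Helper12.P329Cut

/-!
# Two-way clocks: the automata cut at the arrivals which are not pops / not patterns (T10, T11)

The two statements are proved from the two general lemmas of tasks T2 and T3 (`cf_of_base`,
`base_of_height`), which are taken as hypotheses here in the form of the propositions
`CfOfBase` and `BaseOfHeight`.
-/

namespace Vale.Agent.Helper12.P329Pop

open Vale.Agent.Helper10 Vale.Agent.Helper12.P329TwoWay Vale.Agent.Helper12.P329Cut

/-- the statement of task T2 -/
def CfOfBase : Prop :=
  ∀ {I α : Type} (δ : I → α → I) (bad bad0 : I → α → Bool) (i0 : I)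
    (_ : ∀ i a, bad0 i a = true → bad i a = true ∨ δ i a = i0)
    (_ : CounterFree (gOpt δ bad0))
    (_ : ∀ (u : List α) (n : ℕ), 0 < n →
      (fun x => run (gOpt δ bad) x u)^[n] (some i0) = some i0 →
      run (gOpt δ bad) (some i0) u = some i0), CounterFree (gOpt δ bad)

/-- the statement of task T3 -/
def BaseOfHeight : Prop :=
  ∀ {I α : Type} (ε : Option I → α → Option I) (_ : ∀ a, ε none a = none) (i0 : I)
    (G D : I → Prop) (h : I → ℤ) (sg : α → ℤ) (_ : G i0) (_ : ¬ D i0)
    (_ : ∀ i a j, D i → ε (some i) a = some j → D j)
    (_ : ∀ i a j, G i → ε (some i) a = some j → D j ∨ (G j ∧ h j = h i + sg a))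
    (_ : ∀ i, G i → h i = h i0 → i = i0),
    ∀ (u : List α) (n : ℕ), 0 < n → (fun x => run ε x u)^[n] (some i0) = some i0 →
      run ε (some i0) u = some i0

section basics

variable {α : Type} {m : ℕ}

theorem gOpt_some_iff {I : Type} (δ : I → α → I) (bad : I → α → Bool) (i : I) (a : α) (j : I) :
    gOpt δ bad (some i) a = some j ↔ bad i a = false ∧ δ i a = j := by
  cases h : bad i a with
  | false => simp [gOpt, h]
  | true => simp [gOpt, h]

theorem letter_cases (up dn : α → Bool) (a : α) :
    up a = true ∨ (up a = false ∧ dn a = true) ∨ (up a = false ∧ dn a = false) := by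
  cases h1 : up a with
  | true => exact Or.inl rfl
  | false =>
    cases h2 : dn a with
    | true => exact Or.inr (Or.inl ⟨rfl, rfl⟩)
    | false => exact Or.inr (Or.inr ⟨rfl, rfl⟩)

theorem clsArr_up (up dn : α → Bool) (x c : ZMod m) (a : α) (h : up a = true) :
    clsArr up dn x c a = decide (c + 1 = x) := by
  simp [clsArr, h]

theorem clsArr_dn (up dn : α → Bool) (x c : ZMod m) (a : α) (h : up a = false)
    (h' : dn a = true) : clsArr up dn x c a = decide (c - 1 = x) := by
  simp [clsArr, h, h']

theorem clsArr_stay (up dn : α → Bool) (x c : ZMod m) (a : α) (h : up a = false)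
    (h' : dn a = false) : clsArr up dn x c a = false := by
  simp [clsArr, h, h']

theorem aStep_up (up dn tp : α → Bool) (y : ZMod m) (q : ZMod m × Option Bool) (a : α)
    (h : up a = true) :
    aStep up dn tp y q a = (q.1 + 1, if q.1 + 1 = 0 then none else if q.1 + 1 = y then none
      else if q.1 = y then some (tp a) else q.2) := by
  simp [aStep, clsStep, dgPM, aUpd, h]

theorem aStep_dn (up dn tp : α → Bool) (y : ZMod m) (q : ZMod m × Option Bool) (a : α)
    (h : up a = false) (h' : dn a = true) :
    aStep up dn tp y q a = (q.1 - 1, if q.1 - 1 = 0 then none else if q.1 - 1 = y then none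
      else q.2) := by
  simp [aStep, clsStep, dgPM, aUpd, h, h', ← sub_eq_add_neg]

theorem aStep_stay (up dn tp : α → Bool) (y : ZMod m) (q : ZMod m × Option Bool) (a : α)
    (h : up a = false) (h' : dn a = false) : aStep up dn tp y q a = q := by
  simp [aStep, clsStep, dgPM, aUpd, h, h']

theorem sgn_up (up dn : α → Bool) (a : α) (h : up a = true) : sgn up dn a = 1 := by
  simp [sgn, h]

theorem sgn_dn (up dn : α → Bool) (a : α) (h : up a = false) (h' : dn a = true) :
    sgn up dn a = -1 := by
  simp [sgn, h, h']

theorem sgn_stay (up dn : α → Bool) (a : α) (h : up a = false) (h' : dn a = false) :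
    sgn up dn a = 0 := by
  simp [sgn, h, h']

theorem val_one_of_ne [NeZero m] (h : (1 : ZMod m) ≠ 0) : (((1 : ZMod m).val : ℕ) : ℤ) = 1 := by
  have h1 : (0 : ZMod m) + 1 ≠ 0 := by rw [zero_add]; exact h
  have h2 := val_succ' (0 : ZMod m) h1
  rw [zero_add, ZMod.val_zero] at h2
  rw [h2]
  simp

theorem val_eq_zero_iff' [NeZero m] (k : ZMod m) : ((k.val : ℕ) : ℤ) = 0 ↔ k = 0 := by
  constructor
  · intro h
    have h1 : k.val = 0 := by exact_mod_cast h
    exact (ZMod.val_eq_zero k).1 h1
  · intro h
    rw [h, ZMod.val_zero]
    rfl

end basics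

section pop

variable {α : Type} {m : ℕ}

/-- an arrival at `y` of the one-cell automaton leads to the base state -/
theorem aStep_arr [NeZero m] (up dn tp : α → Bool) (y : ZMod m) (q : ZMod m × Option Bool)
    (a : α) (h : evArrA up dn y q a = true) : aStep up dn tp y q a = (y, none) := by
  unfold evArrA at h
  rcases letter_cases up dn a with hu | ⟨hu, hd⟩ | ⟨hu, hd⟩
  · rw [clsArr_up up dn y q.1 a hu] at h
    have h1 : q.1 + 1 = y := of_decide_eq_true h
    rw [aStep_up up dn tp y q a hu, h1]
    by_cases h0 : y = 0
    · rw [if_pos h0]
    · rw [if_neg h0, if_pos rfl]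
  · rw [clsArr_dn up dn y q.1 a hu hd] at h
    have h1 : q.1 - 1 = y := of_decide_eq_true h
    rw [aStep_dn up dn tp y q a hu hd, h1]
    by_cases h0 : y = 0
    · rw [if_pos h0]
    · rw [if_neg h0, if_pos rfl]
  · rw [clsArr_stay up dn y q.1 a hu hd] at h
    exact absurd h (by simp)

/-- **T11, from T2 and T3.** -/
theorem pop_cf_of (hbase : CfOfBase) (hheight : BaseOfHeight) [NeZero m]
    (up dn tp : α → Bool) (y : ZMod m) :
    CounterFree (gOpt (aStep (m := m) up dn tp y)
      (fun q a => evArrA up dn y q a && !evPopA up dn y q a)) := by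
  refine hbase (aStep (m := m) up dn tp y)
    (fun q a => evArrA up dn y q a && !evPopA up dn y q a) (evArrA up dn y) (y, none)
    (fun i a h => Or.inr (aStep_arr up dn tp y i a h)) (a_cut_cf up dn tp y) ?_
  refine hheight (gOpt (aStep (m := m) up dn tp y)
      (fun q a => evArrA up dn y q a && !evPopA up dn y q a)) (fun _ => rfl) (y, none)
    (fun q => q = (y, none) ∨ (q.1 ≠ y ∧ q.2 = some true))
    (fun q => q.1 ≠ y ∧ q.2 ≠ some true)
    (fun q => if q.1 = y then 0 else ((q.1 - y).val : ℤ))
    (sgn up dn) (Or.inl rfl) (fun h => h.1 rfl) ?_ ?_ ?_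
  · -- the dead region is closed
    rintro ⟨c, e⟩ a j ⟨hc, he⟩ hj
    rw [gOpt_some_iff] at hj
    obtain ⟨hbad, rfl⟩ := hj
    have hc' : c ≠ y := hc
    have he' : e ≠ some true := he
    have hpop : evPopA up dn y (c, e) a = false := by
      simp [evPopA, he']
    have harr : evArrA up dn y (c, e) a = false := by
      have h1 : (evArrA up dn y (c, e) a && !evPopA up dn y (c, e) a) = false := hbad
      rw [hpop] at h1
      simpa using h1
    unfold evArrA at harr
    rcases letter_cases up dn a with hu | ⟨hu, hd⟩ | ⟨hu, hd⟩
    · rw [clsArr_up up dn y c a hu] at harr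
      have h1 : c + 1 ≠ y := of_decide_eq_false harr
      rw [aStep_up up dn tp y (c, e) a hu]
      refine ⟨h1, ?_⟩
      show (if c + 1 = 0 then none else if c + 1 = y then none
        else if c = y then some (tp a) else e) ≠ some true
      by_cases h0 : c + 1 = 0
      · rw [if_pos h0]; simp
      · rw [if_neg h0, if_neg h1, if_neg hc']
        exact he'
    · rw [clsArr_dn up dn y c a hu hd] at harr
      have h1 : c - 1 ≠ y := of_decide_eq_false harr
      rw [aStep_dn up dn tp y (c, e) a hu hd]
      refine ⟨h1, ?_⟩
      show (if c - 1 = 0 then none else if c - 1 = y then none else e) ≠ some true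
      by_cases h0 : c - 1 = 0
      · rw [if_pos h0]; simp
      · rw [if_neg h0, if_neg h1]
        exact he'
    · rw [aStep_stay up dn tp y (c, e) a hu hd]
      exact ⟨hc', he'⟩
  · -- the good region
    rintro ⟨c, e⟩ a j hG hj
    rw [gOpt_some_iff] at hj
    obtain ⟨hbad, rfl⟩ := hj
    have hbad' : (evArrA up dn y (c, e) a && !evPopA up dn y (c, e) a) = false := hbad
    rcases hG with hG | ⟨hc, he⟩
    · -- at the base state
      have hc : c = y := congrArg Prod.fst hG
      have he : e = none := congrArg Prod.snd hG
      subst hc
      subst he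
      have hpop : evPopA up dn c (c, none) a = false := by
        simp [evPopA]
      have harr : evArrA up dn c (c, none) a = false := by
        rw [hpop] at hbad'
        simpa using hbad'
      unfold evArrA at harr
      rcases letter_cases up dn a with hu | ⟨hu, hd⟩ | ⟨hu, hd⟩
      · rw [clsArr_up up dn c c a hu] at harr
        have h1 : c + 1 ≠ c := of_decide_eq_false harr
        have h10 : (1 : ZMod m) ≠ 0 := by
          intro h
          apply h1
          rw [h, add_zero]
        rw [aStep_up up dn tp c (c, none) a hu]
        show ((c + 1 ≠ c ∧ (if c + 1 = 0 then none else if c + 1 = c then none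
            else if c = c then some (tp a) else none) ≠ some true)) ∨
          (((c + 1, (if c + 1 = 0 then none else if c + 1 = c then none
            else if c = c then some (tp a) else (none : Option Bool))) = (c, none) ∨
            (c + 1 ≠ c ∧ (if c + 1 = 0 then none else if c + 1 = c then none
            else if c = c then some (tp a) else none) = some true)) ∧
            (if c + 1 = c then (0 : ℤ) else ((c + 1 - c).val : ℤ))
              = (if c = c then (0 : ℤ) else ((c - c).val : ℤ)) + sgn up dn a)
        by_cases h0 : c + 1 = 0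
        · left
          rw [if_pos h0]
          exact ⟨h1, by simp⟩
        · rw [if_neg h0, if_neg h1, if_pos rfl]
          cases ht : tp a with
          | false =>
            left
            exact ⟨h1, by simp⟩
          | true =>
            right
            refine ⟨Or.inr ⟨h1, rfl⟩, ?_⟩
            rw [if_neg h1, if_pos rfl, sgn_up up dn a hu]
            have e1 : c + 1 - c = 1 := by ring
            rw [e1, val_one_of_ne h10]
            ring
      · rw [clsArr_dn up dn c c a hu hd] at harr
        have h1 : c - 1 ≠ c := of_decide_eq_false harr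
        rw [aStep_dn up dn tp c (c, none) a hu hd]
        left
        refine ⟨h1, ?_⟩
        show (if c - 1 = 0 then none else if c - 1 = c then none else (none : Option Bool))
          ≠ some true
        split_ifs <;> simp
      · rw [aStep_stay up dn tp c (c, none) a hu hd]
        right
        refine ⟨Or.inl rfl, ?_⟩
        rw [sgn_stay up dn a hu hd, add_zero]
    · -- away from `y` with the cell `some true`
      have hc' : c ≠ y := hc
      have he' : e = some true := he
      subst he'
      have hcy : c - y ≠ 0 := fun h => hc' (sub_eq_zero.1 h)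
      rcases letter_cases up dn a with hu | ⟨hu, hd⟩ | ⟨hu, hd⟩
      · have hpop : evPopA up dn y (c, some true) a = false := by
          simp [evPopA, hu]
        have harr : evArrA up dn y (c, some true) a = false := by
          rw [hpop] at hbad'
          simpa using hbad'
        unfold evArrA at harr
        rw [clsArr_up up dn y c a hu] at harr
        have h1 : c + 1 ≠ y := of_decide_eq_false harr
        rw [aStep_up up dn tp y (c, some true) a hu]
        show ((c + 1 ≠ y ∧ (if c + 1 = 0 then none else if c + 1 = y then none
            else if c = y then some (tp a) else some true) ≠ some true)) ∨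
          (((c + 1, (if c + 1 = 0 then none else if c + 1 = y then none
            else if c = y then some (tp a) else some true)) = (y, none) ∨
            (c + 1 ≠ y ∧ (if c + 1 = 0 then none else if c + 1 = y then none
            else if c = y then some (tp a) else some true) = some true)) ∧
            (if c + 1 = y then (0 : ℤ) else ((c + 1 - y).val : ℤ))
              = (if c = y then (0 : ℤ) else ((c - y).val : ℤ)) + sgn up dn a)
        by_cases h0 : c + 1 = 0
        · left
          rw [if_pos h0]
          exact ⟨h1, by simp⟩
        · right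
          rw [if_neg h0, if_neg h1, if_neg hc']
          refine ⟨Or.inr ⟨h1, rfl⟩, ?_⟩
          rw [if_neg h1, if_neg hc', sgn_up up dn a hu]
          have e2 : c + 1 - y = (c - y) + 1 := by ring
          have hne : (c - y) + 1 ≠ 0 := by
            intro h
            apply h1
            have : c + 1 - y = 0 := by rw [e2]; exact h
            exact sub_eq_zero.1 this
          rw [e2, val_succ' (c - y) hne]
      · rw [aStep_dn up dn tp y (c, some true) a hu hd]
        show ((c - 1 ≠ y ∧ (if c - 1 = 0 then none else if c - 1 = y then none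
            else some true) ≠ some true)) ∨
          (((c - 1, (if c - 1 = 0 then none else if c - 1 = y then none
            else some true)) = (y, none) ∨
            (c - 1 ≠ y ∧ (if c - 1 = 0 then none else if c - 1 = y then none
            else some true) = some true)) ∧
            (if c - 1 = y then (0 : ℤ) else ((c - 1 - y).val : ℤ))
              = (if c = y then (0 : ℤ) else ((c - y).val : ℤ)) + sgn up dn a)
        rw [if_neg hc', sgn_dn up dn a hu hd]
        by_cases h1 : c - 1 = y
        · -- a pop: back to the base state
          right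
          have e3 : (c - 1, (if c - 1 = 0 then none else if c - 1 = y then none
              else some true)) = (y, (none : Option Bool)) := by
            by_cases h0 : c - 1 = 0
            · rw [if_pos h0, h1]
            · rw [if_neg h0, if_pos h1, h1]
          refine ⟨Or.inl e3, ?_⟩
          rw [if_pos h1]
          have e4 : c - y = 1 := by rw [← h1]; ring
          have h10 : (1 : ZMod m) ≠ 0 := by rw [← e4]; exact hcy
          rw [e4, val_one_of_ne h10]
          ring
        · by_cases h0 : c - 1 = 0
          · left
            rw [if_pos h0]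
            exact ⟨h1, by simp⟩
          · right
            rw [if_neg h0, if_neg h1]
            refine ⟨Or.inr ⟨h1, rfl⟩, ?_⟩
            rw [if_neg h1]
            have e2 : c - 1 - y = (c - y) - 1 := by ring
            rw [e2, val_pred (c - y) hcy]
            ring
      · rw [aStep_stay up dn tp y (c, some true) a hu hd]
        right
        refine ⟨Or.inr ⟨hc', rfl⟩, ?_⟩
        rw [sgn_stay up dn a hu hd, add_zero]
  · -- the height separates the base state inside the good region
    rintro ⟨c, e⟩ hG hh
    rcases hG with hG | ⟨hc, he⟩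
    · exact hG
    · exfalso
      have hc' : c ≠ y := hc
      have hh' : (if c = y then (0 : ℤ) else ((c - y).val : ℤ))
          = (if y = y then (0 : ℤ) else ((y - y).val : ℤ)) := hh
      rw [if_neg hc', if_pos rfl] at hh'
      have h1 : c - y = 0 := (val_eq_zero_iff' (c - y)).1 hh'
      exact hc' (sub_eq_zero.1 h1)

end pop

section nw

variable {α : Type} {m : ℕ}

theorem val_add_one_eq [NeZero m] (k : ZMod m) (h : k + 1 = 0) :
    ((k.val : ℕ) : ℤ) + 1 = (m : ℤ) := by
  have h1 : k.val < m := ZMod.val_lt k
  have h2 : ((k.val + 1 : ℕ) : ZMod m) = 0 := by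
    push_cast
    rw [ZMod.natCast_zmod_val]
    exact h
  have h3 : m ∣ k.val + 1 := (ZMod.natCast_eq_zero_iff _ _).1 h2
  have h4 : m ≤ k.val + 1 := Nat.le_of_dvd (Nat.succ_pos _) h3
  have h5 : k.val + 1 = m := by omega
  exact_mod_cast h5

/-- an arrival at `0` of the master automaton leads to the base state -/
theorem mStep_arr (up dn tp : α → Bool) (q : ZMod m × (ZMod m → Option Bool)) (a : α)
    (h : evArr0 up dn q a = true) : mStep up dn tp q a = mBase m := by
  unfold evArr0 at h
  rcases letter_cases up dn a with hu | ⟨hu, hd⟩ | ⟨hu, hd⟩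
  · rw [clsArr_up up dn 0 q.1 a hu] at h
    exact mStep_up_arr up dn tp q a hu (of_decide_eq_true h)
  · rw [clsArr_dn up dn 0 q.1 a hu hd] at h
    exact mStep_dn_arr up dn tp q a hu hd (of_decide_eq_true h)
  · rw [clsArr_stay up dn 0 q.1 a hu hd] at h
    exact absurd h (by simp)

theorem evNW_false_of (up tp : α → Bool) (y : ZMod m) (q : ZMod m × (ZMod m → Option Bool))
    (a : α) (h : lam1 tp q a 0 ≠ none) : evNW up tp y q a = false := by
  simp [evNW, h]

theorem evNW_false_of_up (up tp : α → Bool) (y : ZMod m)
    (q : ZMod m × (ZMod m → Option Bool)) (a : α) (h : up a = false) :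
    evNW up tp y q a = false := by
  simp [evNW, h]

/-- **T10, from T2 and T3.** -/
theorem nw_cf_of (hbase : CfOfBase) (hheight : BaseOfHeight) [NeZero m]
    (up dn tp : α → Bool) (y : ZMod m) :
    CounterFree (gOpt (mStep (m := m) up dn tp)
      (fun q a => evArr0 up dn q a && !evNW up tp y q a)) := by
  refine hbase (mStep (m := m) up dn tp)
    (fun q a => evArr0 up dn q a && !evNW up tp y q a) (evArr0 up dn) (mBase m)
    (fun i a h => Or.inr (mStep_arr up dn tp i a h)) (m_cut_cf up dn tp) ?_
  refine hheight (gOpt (mStep (m := m) up dn tp)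
      (fun q a => evArr0 up dn q a && !evNW up tp y q a)) (fun _ => rfl) (mBase m)
    (fun q => q = mBase m ∨ (q.1 ≠ 0 ∧ q.2 0 = none))
    (fun q => q.1 ≠ 0 ∧ q.2 0 ≠ none)
    (fun q => if q.1 = 0 then 0 else ((q.1.val : ℕ) : ℤ) - (m : ℤ))
    (sgn up dn) (Or.inl rfl) (fun h => h.1 rfl) ?_ ?_ ?_
  · -- the dead region is closed
    rintro ⟨c, L⟩ a j ⟨hc, hL⟩ hj
    rw [gOpt_some_iff] at hj
    obtain ⟨hbad, rfl⟩ := hj
    have hc' : c ≠ 0 := hc
    have hL' : L 0 ≠ none := hL
    have hlam : lam1 tp (c, L) a 0 ≠ none := by
      show Function.update L c (some (tp a)) 0 ≠ none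
      rw [Function.update_of_ne (Ne.symm hc')]
      exact hL'
    have hnw : evNW up tp y (c, L) a = false := evNW_false_of up tp y (c, L) a hlam
    have harr : evArr0 up dn (c, L) a = false := by
      have h1 : (evArr0 up dn (c, L) a && !evNW up tp y (c, L) a) = false := hbad
      rw [hnw] at h1
      simpa using h1
    unfold evArr0 at harr
    rcases letter_cases up dn a with hu | ⟨hu, hd⟩ | ⟨hu, hd⟩
    · rw [clsArr_up up dn 0 c a hu] at harr
      have h1 : c + 1 ≠ 0 := of_decide_eq_false harr
      rw [mStep_up up dn tp (c, L) a hu h1]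
      refine ⟨h1, ?_⟩
      show Function.update (Function.update L c (some (tp a))) (c + 1) none 0 ≠ none
      rw [Function.update_of_ne (Ne.symm h1), Function.update_of_ne (Ne.symm hc')]
      exact hL'
    · rw [clsArr_dn up dn 0 c a hu hd] at harr
      have h1 : c - 1 ≠ 0 := of_decide_eq_false harr
      rw [mStep_dn up dn tp (c, L) a hu hd h1]
      refine ⟨h1, ?_⟩
      show Function.update L (c - 1) none 0 ≠ none
      rw [Function.update_of_ne (Ne.symm h1)]
      exact hL'
    · rw [mStep_stay up dn tp (c, L) a hu hd]
      exact ⟨hc', hL'⟩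
  · -- the good region
    rintro ⟨c, L⟩ a j hG hj
    rw [gOpt_some_iff] at hj
    obtain ⟨hbad, rfl⟩ := hj
    have hbad' : (evArr0 up dn (c, L) a && !evNW up tp y (c, L) a) = false := hbad
    rcases hG with hG | ⟨hc, hL⟩
    · -- at the base state
      have hc : c = 0 := congrArg Prod.fst hG
      have hL : L = fun _ => none := congrArg Prod.snd hG
      subst hc
      subst hL
      have hlam : lam1 tp ((0 : ZMod m), fun _ => (none : Option Bool)) a 0 ≠ none := by
        show Function.update (fun _ => (none : Option Bool)) (0 : ZMod m) (some (tp a)) 0 ≠ none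
        rw [Function.update_self]
        simp
      have hnw : evNW up tp y ((0 : ZMod m), fun _ => (none : Option Bool)) a = false :=
        evNW_false_of up tp y _ a hlam
      have harr : evArr0 up dn ((0 : ZMod m), fun _ => (none : Option Bool)) a = false := by
        rw [hnw] at hbad'
        simpa using hbad'
      unfold evArr0 at harr
      rcases letter_cases up dn a with hu | ⟨hu, hd⟩ | ⟨hu, hd⟩
      · rw [clsArr_up up dn 0 0 a hu] at harr
        have h1 : (0 : ZMod m) + 1 ≠ 0 := of_decide_eq_false harr
        rw [mStep_up up dn tp ((0 : ZMod m), fun _ => (none : Option Bool)) a hu h1]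
        left
        refine ⟨h1, ?_⟩
        show Function.update (Function.update (fun _ => (none : Option Bool)) (0 : ZMod m)
          (some (tp a))) ((0 : ZMod m) + 1) none 0 ≠ none
        rw [Function.update_of_ne (Ne.symm h1), Function.update_self]
        simp
      · rw [clsArr_dn up dn 0 0 a hu hd] at harr
        have h1 : (0 : ZMod m) - 1 ≠ 0 := of_decide_eq_false harr
        rw [mStep_dn up dn tp ((0 : ZMod m), fun _ => (none : Option Bool)) a hu hd h1]
        right
        refine ⟨Or.inr ⟨h1, ?_⟩, ?_⟩
        · show Function.update (fun _ => (none : Option Bool)) ((0 : ZMod m) - 1) none 0 = none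
          rw [Function.update_of_ne (Ne.symm h1)]
        · show (if (0 : ZMod m) - 1 = 0 then (0 : ℤ)
              else ((((0 : ZMod m) - 1).val : ℕ) : ℤ) - (m : ℤ))
            = (if (0 : ZMod m) = 0 then (0 : ℤ) else ((((0 : ZMod m)).val : ℕ) : ℤ) - (m : ℤ))
              + sgn up dn a
          rw [if_neg h1, if_pos rfl, sgn_dn up dn a hu hd]
          have h2 := val_add_one_eq ((0 : ZMod m) - 1) (by ring)
          linarith
      · rw [mStep_stay up dn tp ((0 : ZMod m), fun _ => (none : Option Bool)) a hu hd]
        right
        refine ⟨Or.inl rfl, ?_⟩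
        rw [sgn_stay up dn a hu hd, add_zero]
    · -- away from `0` with the entry at `0` empty
      have hc' : c ≠ 0 := hc
      have hL' : L 0 = none := hL
      rcases letter_cases up dn a with hu | ⟨hu, hd⟩ | ⟨hu, hd⟩
      · by_cases h1 : c + 1 = 0
        · -- the unmarked arrival from below
          rw [mStep_up_arr up dn tp (c, L) a hu h1]
          right
          refine ⟨Or.inl rfl, ?_⟩
          show (if (0 : ZMod m) = 0 then (0 : ℤ) else ((((0 : ZMod m)).val : ℕ) : ℤ) - (m : ℤ))
            = (if c = 0 then (0 : ℤ) else ((c.val : ℕ) : ℤ) - (m : ℤ)) + sgn up dn a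
          rw [if_pos rfl, if_neg hc', sgn_up up dn a hu]
          have h2 := val_add_one_eq c h1
          linarith
        · rw [mStep_up up dn tp (c, L) a hu h1]
          right
          refine ⟨Or.inr ⟨h1, ?_⟩, ?_⟩
          · show Function.update (Function.update L c (some (tp a))) (c + 1) none 0 = none
            rw [Function.update_of_ne (Ne.symm h1), Function.update_of_ne (Ne.symm hc')]
            exact hL'
          · show (if c + 1 = 0 then (0 : ℤ) else (((c + 1).val : ℕ) : ℤ) - (m : ℤ))
              = (if c = 0 then (0 : ℤ) else ((c.val : ℕ) : ℤ) - (m : ℤ)) + sgn up dn a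
            rw [if_neg h1, if_neg hc', sgn_up up dn a hu, val_succ' c h1]
            ring
      · by_cases h1 : c - 1 = 0
        · -- a marked arrival from above: not alive
          exfalso
          have hnw : evNW up tp y (c, L) a = false := evNW_false_of_up up tp y (c, L) a hu
          have harr : evArr0 up dn (c, L) a = true := by
            unfold evArr0
            rw [clsArr_dn up dn 0 c a hu hd]
            exact decide_eq_true h1
          rw [hnw, harr] at hbad'
          simp at hbad'
        · rw [mStep_dn up dn tp (c, L) a hu hd h1]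
          right
          refine ⟨Or.inr ⟨h1, ?_⟩, ?_⟩
          · show Function.update L (c - 1) none 0 = none
            rw [Function.update_of_ne (Ne.symm h1)]
            exact hL'
          · show (if c - 1 = 0 then (0 : ℤ) else (((c - 1).val : ℕ) : ℤ) - (m : ℤ))
              = (if c = 0 then (0 : ℤ) else ((c.val : ℕ) : ℤ) - (m : ℤ)) + sgn up dn a
            rw [if_neg h1, if_neg hc', sgn_dn up dn a hu hd, val_pred c hc']
            ring
      · rw [mStep_stay up dn tp (c, L) a hu hd]
        right
        refine ⟨Or.inr ⟨hc', hL'⟩, ?_⟩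
        rw [sgn_stay up dn a hu hd, add_zero]
  · -- the height separates the base state inside the good region
    rintro ⟨c, L⟩ hG hh
    rcases hG with hG | ⟨hc, hL⟩
    · exact hG
    · exfalso
      have hc' : c ≠ 0 := hc
      have hh' : (if c = 0 then (0 : ℤ) else ((c.val : ℕ) : ℤ) - (m : ℤ))
          = (if (0 : ZMod m) = 0 then (0 : ℤ) else ((((0 : ZMod m)).val : ℕ) : ℤ) - (m : ℤ)) := hh
      rw [if_neg hc', if_pos rfl] at hh'
      have h1 : c.val < m := ZMod.val_lt c
      have h2 : ((c.val : ℕ) : ℤ) < (m : ℤ) := by exact_mod_cast h1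
      linarith

end nw

end Vale.Agent.Helper12.P329Pop
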