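import Vale.Agent.Helper10.PMDefs
import Vale.Agent.Helper10.Rounds

/-!
# Two-way clocks: the class automaton cut at the arrivals to a class (tasks T5, T9 for P329)

`clsCut_cf`: the class automaton of a two-way clock modulo `m`, with the transitions arriving
at the class `x` redirected to a sink, is counter-free.
-/

namespace Vale.Agent.Helper12.P329TwoWay

open Vale.Agent.Helper10

section cls

variable {α : Type} {m : ℕ}

theorem val_pred [NeZero m] (k : ZMod m) (h : k ≠ 0) : ((k - 1).val : ℤ) = (k.val : ℤ) - 1 := by
  have h1 : (k - 1) + 1 ≠ 0 := by
    rw [sub_add_cancel]; exact h
  have h2 := zmod_val_succ m (k - 1) h1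
  rw [sub_add_cancel] at h2
  rw [h2]
  push_cast
  ring

theorem val_succ' [NeZero m] (k : ZMod m) (h : k + 1 ≠ 0) :
    ((k + 1).val : ℤ) = (k.val : ℤ) + 1 := by
  rw [zmod_val_succ m k h]
  push_cast
  ring

/-- the sign of a letter of a two-way clock -/
def sgn (up dn : α → Bool) (a : α) : ℤ := if up a = true then 1 else if dn a = true then -1 else 0

/-- **T5.**  The class automaton cut at the arrivals to `x` is counter-free. -/
theorem clsCut_cf [NeZero m] (up dn : α → Bool) (x : ZMod m) :
    CounterFree (gOpt (clsStep (m := m) up dn) (clsArr up dn x)) := by
  refine cf_of_grading (gOpt (clsStep (m := m) up dn) (clsArr up dn x))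
    (fun q => match q with
      | some c => if c = x then 0 else 1
      | none => 2)
    (fun q => match q with
      | some c => ((c - x).val : ℤ)
      | none => 0)
    (fun r a => if r = 1 then sgn up dn a else 0) ?_ ?_ ?_
  · -- the rank never decreases
    intro q a
    cases q with
    | none => exact le_rfl
    | some c =>
      by_cases hb : clsArr up dn x c a = true
      · have e : gOpt (clsStep (m := m) up dn) (clsArr up dn x) (some c) a = none := by
          simp [gOpt, hb]
        rw [e]
        show (if c = x then 0 else 1) ≤ 2
        split_ifs <;> omega
      · have e : gOpt (clsStep (m := m) up dn) (clsArr up dn x) (some c) a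
            = some (clsStep up dn c a) := by
          simp [gOpt, hb]
        rw [e]
        show (if c = x then 0 else 1) ≤ (if clsStep up dn c a = x then 0 else 1)
        by_cases hc : c = x
        · rw [if_pos hc]; exact Nat.zero_le _
        · rw [if_neg hc]
          have hne : clsStep up dn c a ≠ x := by
            intro h
            apply hb
            unfold clsStep dgPM at h
            unfold clsArr
            by_cases hu : up a = true
            · rw [if_pos hu] at h
              simp [hu, h]
            · have hu' : up a = false := by
                cases h' : up a with
                | false => rfl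
                | true => exact absurd h' hu
              rw [if_neg hu] at h
              by_cases hd : dn a = true
              · rw [if_pos hd] at h
                have h' : c - 1 = x := by rw [sub_eq_add_neg]; exact h
                simp [hu', hd, h']
              · rw [if_neg hd, add_zero] at h
                exact absurd h hc
          rw [if_neg hne]
  · -- inside a level the height moves by the sign of the letter
    intro q a hrk
    cases q with
    | none =>
      show (0 : ℤ) = 0 + (if (2 : ℕ) = 1 then sgn up dn a else 0)
      simp
    | some c =>
      by_cases hb : clsArr up dn x c a = true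
      · have e : gOpt (clsStep (m := m) up dn) (clsArr up dn x) (some c) a = none := by
          simp [gOpt, hb]
        rw [e] at hrk
        exfalso
        have h2 : (2 : ℕ) = (if c = x then 0 else 1) := hrk
        split_ifs at h2 <;> omega
      · have e : gOpt (clsStep (m := m) up dn) (clsArr up dn x) (some c) a
            = some (clsStep up dn c a) := by
          simp [gOpt, hb]
        rw [e] at hrk ⊢
        have hrk' : (if clsStep up dn c a = x then 0 else 1) = (if c = x then 0 else 1) := hrk
        by_cases hc : c = x
        · -- rank 0: the state stays at `x`
          rw [if_pos hc] at hrk'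
          have h1 : clsStep up dn c a = x := by
            by_contra h
            rw [if_neg h] at hrk'
            omega
          have e0 : (if c = x then 0 else 1) = 0 := if_pos hc
          show ((clsStep up dn c a - x).val : ℤ)
            = ((c - x).val : ℤ) + (if (if c = x then 0 else 1) = 1 then sgn up dn a else 0)
          simp only [e0]
          rw [h1, hc]
          simp
        · rw [if_neg hc] at hrk'
          have h1 : clsStep up dn c a ≠ x := by
            intro h
            rw [if_pos h] at hrk'
            omega
          have e0 : (if c = x then 0 else 1) = 1 := if_neg hc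
          show ((clsStep up dn c a - x).val : ℤ)
            = ((c - x).val : ℤ) + (if (if c = x then 0 else 1) = 1 then sgn up dn a else 0)
          simp only [e0]
          rw [if_pos trivial]
          have hcx : c - x ≠ 0 := fun h => hc (sub_eq_zero.1 h)
          unfold clsStep dgPM at h1 ⊢
          unfold sgn
          by_cases hu : up a = true
          · rw [if_pos hu] at h1 ⊢
            rw [if_pos hu]
            have e2 : c + 1 - x = (c - x) + 1 := by ring
            have hne : (c - x) + 1 ≠ 0 := by
              intro h
              apply h1
              have : c + 1 - x = 0 := by rw [e2]; exact h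
              exact sub_eq_zero.1 this
            rw [e2, val_succ' (c - x) hne]
          · rw [if_neg hu] at h1 ⊢
            rw [if_neg hu]
            by_cases hd : dn a = true
            · rw [if_pos hd] at h1 ⊢
              rw [if_pos hd]
              have e2 : c + -1 - x = (c - x) - 1 := by ring
              rw [e2, val_pred (c - x) hcx]
              ring
            · rw [if_neg hd] at h1 ⊢
              rw [if_neg hd, add_zero, add_zero]
  · -- rank and height determine the state
    intro q q' hrk hh
    cases q with
    | none =>
      cases q' with
      | none => rfl
      | some c' =>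
        exfalso
        have h2 : (2 : ℕ) = (if c' = x then 0 else 1) := hrk
        split_ifs at h2 <;> omega
    | some c =>
      cases q' with
      | none =>
        exfalso
        have h2 : (if c = x then 0 else 1) = (2 : ℕ) := hrk
        split_ifs at h2 <;> omega
      | some c' =>
        have h2 : ((c - x).val : ℤ) = ((c' - x).val : ℤ) := hh
        have h3 : (c - x).val = (c' - x).val := by exact_mod_cast h2
        have h4 : c - x = c' - x := ZMod.val_injective m h3
        have h5 : c = c' := sub_left_injective h4
        rw [h5]

theorem mUpd_isOW (up dn tp : α → Bool) (c : ZMod m) (a : α) :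
    IsOW (mUpd (m := m) up dn tp c a) := by
  unfold mUpd
  by_cases hu : up a = true
  · simp only [if_pos hu]
    by_cases h1 : c + 1 = 0
    · simp only [if_pos h1]
      exact ⟨fun _ => some none, fun μ i => rfl⟩
    · simp only [if_neg h1]
      refine ⟨fun i => if i = c + 1 then some none else if i = c then some (some (tp a))
        else none, fun μ i => ?_⟩
      show Function.update (Function.update μ c (some (tp a))) (c + 1) none i
        = (if i = c + 1 then some none else if i = c then some (some (tp a)) else none).getD (μ i)
      by_cases hi : i = c + 1
      · rw [if_pos hi, hi, Function.update_self]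
        rfl
      · rw [if_neg hi, Function.update_of_ne hi]
        by_cases hi' : i = c
        · rw [if_pos hi', hi', Function.update_self]
          rfl
        · rw [if_neg hi', Function.update_of_ne hi']
          rfl
  · simp only [if_neg hu]
    by_cases hd : dn a = true
    · simp only [if_pos hd]
      by_cases h1 : c - 1 = 0
      · simp only [if_pos h1]
        exact ⟨fun _ => some none, fun μ i => rfl⟩
      · simp only [if_neg h1]
        refine ⟨fun i => if i = c - 1 then some none else none, fun μ i => ?_⟩
        show Function.update μ (c - 1) none i
          = (if i = c - 1 then some none else none).getD (μ i)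
        by_cases hi : i = c - 1
        · rw [if_pos hi, hi, Function.update_self]
          rfl
        · rw [if_neg hi, Function.update_of_ne hi]
          rfl
    · simp only [if_neg hd]
      exact ⟨fun _ => none, fun μ i => rfl⟩

theorem aUpd_isOW1 (up dn tp : α → Bool) (y c : ZMod m) (a : α) :
    IsOW1 (aUpd (m := m) up dn tp y c a) := by
  unfold aUpd
  by_cases hu : up a = true
  · simp only [if_pos hu]
    by_cases h1 : c + 1 = 0
    · simp only [if_pos h1]
      exact ⟨some none, fun μ => rfl⟩
    · simp only [if_neg h1]
      by_cases h2 : c + 1 = y
      · simp only [if_pos h2]
        exact ⟨some none, fun μ => rfl⟩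
      · simp only [if_neg h2]
        by_cases h3 : c = y
        · simp only [if_pos h3]
          exact ⟨some (some (tp a)), fun μ => rfl⟩
        · simp only [if_neg h3]
          exact ⟨none, fun μ => rfl⟩
  · simp only [if_neg hu]
    by_cases hd : dn a = true
    · simp only [if_pos hd]
      by_cases h1 : c - 1 = 0
      · simp only [if_pos h1]
        exact ⟨some none, fun μ => rfl⟩
      · simp only [if_neg h1]
        by_cases h2 : c - 1 = y
        · simp only [if_pos h2]
          exact ⟨some none, fun μ => rfl⟩
        · simp only [if_neg h2]
          exact ⟨none, fun μ => rfl⟩
    · simp only [if_neg hd]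
      exact ⟨none, fun μ => rfl⟩

/-- the statement of the memory-extension lemma for overwrite maps (task T1) -/
def ExtCf : Prop :=
  ∀ {Q α ι V : Type} (δ : Q → α → Q) (bad' : Q → α → Bool)
    (u : Q → α → (ι → V) → (ι → V)) (_ : ∀ q a, IsOW (u q a))
    (bad : Q × (ι → V) → α → Bool) (_ : ∀ q μ a, bad' q a = true → bad (q, μ) a = true)
    (_ : CounterFree (gOpt δ bad')), CounterFree (gOpt (extStep δ u) bad)

/-- the statement of the memory-extension lemma for one cell (task T1) -/
def ExtCf1 : Prop :=
  ∀ {Q α V : Type} (δ : Q → α → Q) (bad' : Q → α → Bool)
    (u : Q → α → V → V) (_ : ∀ q a, IsOW1 (u q a))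
    (bad : Q × V → α → Bool) (_ : ∀ q μ a, bad' q a = true → bad (q, μ) a = true)
    (_ : CounterFree (gOpt δ bad')), CounterFree (gOpt (extStep δ u) bad)

/-- **T9 (first half), from the memory-extension lemma.** -/
theorem m_cut_cf_of (hext : ExtCf) [NeZero m] (up dn tp : α → Bool) :
    CounterFree (gOpt (mStep (m := m) up dn tp) (evArr0 up dn)) :=
  hext (clsStep (m := m) up dn) (clsArr up dn 0) (mUpd up dn tp)
    (fun c a => mUpd_isOW up dn tp c a) (evArr0 up dn) (fun _ _ _ h => h)
    (clsCut_cf up dn 0)

/-- **T9 (second half), from the memory-extension lemma for one cell.** -/
theorem a_cut_cf_of (hext : ExtCf1) [NeZero m] (up dn tp : α → Bool) (y : ZMod m) :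
    CounterFree (gOpt (aStep (m := m) up dn tp y) (evArrA up dn y)) :=
  hext (clsStep (m := m) up dn) (clsArr up dn y) (aUpd up dn tp y)
    (fun c a => aUpd_isOW1 up dn tp y c a) (evArrA up dn y) (fun _ _ _ h => h)
    (clsCut_cf up dn y)

end cls

end Vale.Agent.Helper12.P329TwoWay
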